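/-
S0066 (row 47) — package F1 (sampling), owner helper31.

`exists_sample` is `Crest.Agent.Helper5.S0066.Spec.exists_sample` verbatim: if fewer than
`4^h / 16` cells of the base matrix were changed, some aligned choice `(i, i')` of marker copy
numbers is clean (`MMclean`) and sees fewer than `2^h / 16` bad payload lines.

Proof: double counting.  A changed marker × marker cell spoils exactly one pair `(i, i')`, a
changed payload × marker cell spoils one payload row for exactly one `i'`, and a changed
marker × payload cell spoils one payload column for exactly one `i`.  Summing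
`16 * (N * [¬ clean] + #badRows i' + #badCols i)` over all `N²` pairs gives at most
`16 * N * |E| < N³`, so some pair has value `< N`.
-/
import Crest.Agent.Helper5.S0066.FarDefs

set_option autoImplicit false

namespace Crest.Agent.Helper31.S0066

open Crest.Agent.Helper5.S0066 Line

variable {h : ℕ}

/-- Copy number of a marker line (`none` on payload lines). -/
def cn : Line h → Option (Fin (2 ^ h))
  | .Z i => some i
  | .crown _ i => some i
  | .thr _ _ i => some i
  | _ => none

theorem cn_of_isMark {i : Fin (2 ^ h)} {l : Line h} (hl : IsMark i l) : cn l = some i := by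
  rcases hl with rfl | ⟨a, rfl⟩ | ⟨g, θ, rfl⟩ <;> rfl

theorem isPay_of_isMark {i : Fin (2 ^ h)} {l : Line h} (hl : IsMark i l) : l.isPay = false := by
  rcases hl with rfl | ⟨a, rfl⟩ | ⟨g, θ, rfl⟩ <;> rfl

/-- changed marker × marker cells -/
noncomputable def TMM (B : Line h → Line h → Bool) : Finset (Line h × Line h) :=
  (diffSet B).filter fun p => p.1.isPay = false ∧ p.2.isPay = false

/-- changed payload × marker cells -/
noncomputable def TPM (B : Line h → Line h → Bool) : Finset (Line h × Line h) :=
  (diffSet B).filter fun p => p.1.isPay = true ∧ p.2.isPay = false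

/-- changed marker × payload cells -/
noncomputable def TMP (B : Line h → Line h → Bool) : Finset (Line h × Line h) :=
  (diffSet B).filter fun p => p.1.isPay = false ∧ p.2.isPay = true

theorem card_parts_le (B : Line h → Line h → Bool) :
    (TMM B).card + (TPM B).card + (TMP B).card ≤ (diffSet B).card := by
  classical
  simp only [TMM, TPM, TMP, Finset.card_filter]
  rw [← Finset.sum_add_distrib, ← Finset.sum_add_distrib, Finset.card_eq_sum_ones]
  apply Finset.sum_le_sum
  intro p _
  cases p.1.isPay <;> cases p.2.isPay <;> simp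

open Classical in
theorem card_notclean_le (B : Line h → Line h → Bool) :
    (Finset.univ.filter fun p : Fin (2 ^ h) × Fin (2 ^ h) => ¬ MMclean B p.1 p.2).card
      ≤ (TMM B).card := by
  have hinj : Function.Injective (fun p : Fin (2 ^ h) × Fin (2 ^ h) =>
      ((some p.1 : Option (Fin (2 ^ h))), (some p.2 : Option (Fin (2 ^ h))))) := by
    intro p q hpq
    simp only [Prod.mk.injEq, Option.some.injEq] at hpq
    exact Prod.ext hpq.1 hpq.2
  rw [← Finset.card_image_of_injective _ hinj]
  refine (Finset.card_le_card ?_).trans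
    (Finset.card_image_le (s := TMM B) (f := fun p => (cn p.1, cn p.2)))
  intro x hx
  simp only [Finset.mem_image, Finset.mem_filter, Finset.mem_univ, true_and] at hx
  obtain ⟨⟨i, i'⟩, hnc, rfl⟩ := hx
  unfold MMclean at hnc
  push Not at hnc
  obtain ⟨m, m', hm, hm', hne⟩ := hnc
  simp only [Finset.mem_image]
  refine ⟨(m, m'), ?_, ?_⟩
  · simp only [TMM, diffSet, Finset.mem_filter, Finset.mem_univ, true_and]
    exact ⟨fun hh => hne hh.symm, isPay_of_isMark hm, isPay_of_isMark hm'⟩
  · simp [cn_of_isMark hm, cn_of_isMark hm']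

theorem sum_badRows_le (B : Line h → Line h → Bool) :
    ∑ i' : Fin (2 ^ h), (badRows B i').card ≤ (TPM B).card := by
  classical
  rw [← Finset.card_sigma]
  have hinj : Function.Injective (fun x : (Σ _ : Fin (2 ^ h), Line h) =>
      (x.2, (some x.1 : Option (Fin (2 ^ h))))) := by
    rintro ⟨i, p⟩ ⟨j, q⟩ hpq
    simp only [Prod.mk.injEq, Option.some.injEq] at hpq
    obtain ⟨rfl, rfl⟩ := hpq
    rfl
  rw [← Finset.card_image_of_injective _ hinj]
  refine (Finset.card_le_card ?_).trans
    (Finset.card_image_le (s := TPM B) (f := fun p => (p.1, cn p.2)))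
  intro x hx
  simp only [Finset.mem_image, Finset.mem_sigma, Finset.mem_univ, true_and] at hx
  obtain ⟨⟨i', p⟩, hbad, rfl⟩ := hx
  simp only [badRows, Finset.mem_filter, Finset.mem_univ, true_and] at hbad
  obtain ⟨hpay, hng⟩ := hbad
  unfold GoodRow at hng
  push Not at hng
  obtain ⟨m', hm', hne⟩ := hng hpay
  simp only [Finset.mem_image]
  refine ⟨(p, m'), ?_, ?_⟩
  · simp only [TPM, diffSet, Finset.mem_filter, Finset.mem_univ, true_and]
    exact ⟨fun hh => hne hh.symm, hpay, isPay_of_isMark hm'⟩
  · simp [cn_of_isMark hm']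

theorem sum_badCols_le (B : Line h → Line h → Bool) :
    ∑ i : Fin (2 ^ h), (badCols B i).card ≤ (TMP B).card := by
  classical
  rw [← Finset.card_sigma]
  have hinj : Function.Injective (fun x : (Σ _ : Fin (2 ^ h), Line h) =>
      ((some x.1 : Option (Fin (2 ^ h))), x.2)) := by
    rintro ⟨i, p⟩ ⟨j, q⟩ hpq
    simp only [Prod.mk.injEq, Option.some.injEq] at hpq
    obtain ⟨rfl, rfl⟩ := hpq
    rfl
  rw [← Finset.card_image_of_injective _ hinj]
  refine (Finset.card_le_card ?_).trans
    (Finset.card_image_le (s := TMP B) (f := fun p => (cn p.1, p.2)))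
  intro x hx
  simp only [Finset.mem_image, Finset.mem_sigma, Finset.mem_univ, true_and] at hx
  obtain ⟨⟨i, q⟩, hbad, rfl⟩ := hx
  simp only [badCols, Finset.mem_filter, Finset.mem_univ, true_and] at hbad
  obtain ⟨hpay, hng⟩ := hbad
  unfold GoodCol at hng
  push Not at hng
  obtain ⟨m, hm, hne⟩ := hng hpay
  simp only [Finset.mem_image]
  refine ⟨(m, q), ?_, ?_⟩
  · simp only [TMP, diffSet, Finset.mem_filter, Finset.mem_univ, true_and]
    exact ⟨fun hh => hne hh.symm, isPay_of_isMark hm, hpay⟩
  · simp [cn_of_isMark hm]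

/-- **F1.** Sampling: if fewer than `4^h / 16` cells were changed, some aligned choice of marker
copies `(i, i')` is clean and sees fewer than `2^h / 16` bad payload lines. -/
theorem exists_sample (B : Line h → Line h → Bool) (hE : 16 * (diffSet B).card < 4 ^ h) :
    ∃ i i' : Fin (2 ^ h), MMclean B i i' ∧
      16 * ((badRows B i').card + (badCols B i).card) < 2 ^ h := by
  classical
  have hNpos : 0 < 2 ^ h := by positivity
  have h4 : (4 : ℕ) ^ h = 2 ^ h * 2 ^ h := by
    rw [show (4 : ℕ) = 2 * 2 from rfl, mul_pow]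
  have h1 : ∑ p : Fin (2 ^ h) × Fin (2 ^ h), (if MMclean B p.1 p.2 then 0 else 1)
      = (Finset.univ.filter fun p : Fin (2 ^ h) × Fin (2 ^ h) => ¬ MMclean B p.1 p.2).card := by
    rw [Finset.card_filter]
    apply Finset.sum_congr rfl
    intro p _
    by_cases hc : MMclean B p.1 p.2 <;> simp [hc]
  have h2 : ∑ p : Fin (2 ^ h) × Fin (2 ^ h), (badRows B p.2).card
      = 2 ^ h * ∑ i', (badRows B i').card := by
    rw [Fintype.sum_prod_type]
    simp [Finset.sum_const, Finset.card_univ]
  have h3 : ∑ p : Fin (2 ^ h) × Fin (2 ^ h), (badCols B p.1).card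
      = 2 ^ h * ∑ i, (badCols B i).card := by
    rw [Fintype.sum_prod_type]
    simp [Finset.sum_const, Finset.card_univ, Finset.mul_sum]
  have hsum : ∑ p : Fin (2 ^ h) × Fin (2 ^ h),
        16 * (2 ^ h * (if MMclean B p.1 p.2 then 0 else 1) + (badRows B p.2).card
          + (badCols B p.1).card)
      < ∑ _p : Fin (2 ^ h) × Fin (2 ^ h), 2 ^ h := by
    rw [← Finset.mul_sum, Finset.sum_add_distrib, Finset.sum_add_distrib, ← Finset.mul_sum,
      h1, h2, h3]
    simp only [Finset.sum_const, Finset.card_univ, Fintype.card_prod, Fintype.card_fin,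
      smul_eq_mul]
    have ha := card_notclean_le B
    have hb := sum_badRows_le B
    have hc := sum_badCols_le B
    have hd := card_parts_le B
    calc 16 * (2 ^ h * (Finset.univ.filter
            fun p : Fin (2 ^ h) × Fin (2 ^ h) => ¬ MMclean B p.1 p.2).card
          + 2 ^ h * ∑ i', (badRows B i').card + 2 ^ h * ∑ i, (badCols B i).card)
        = 2 ^ h * (16 * ((Finset.univ.filter
            fun p : Fin (2 ^ h) × Fin (2 ^ h) => ¬ MMclean B p.1 p.2).card
          + ∑ i', (badRows B i').card + ∑ i, (badCols B i).card)) := by ring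
      _ ≤ 2 ^ h * (16 * (diffSet B).card) := by
          apply Nat.mul_le_mul_left
          omega
      _ < 2 ^ h * (2 ^ h * 2 ^ h) := by
          apply Nat.mul_lt_mul_of_pos_left _ hNpos
          omega
      _ = 2 ^ h * 2 ^ h * 2 ^ h := by ring
  obtain ⟨⟨i, i'⟩, -, hlt⟩ := Finset.exists_lt_of_sum_lt hsum
  by_cases hc : MMclean B i i'
  · refine ⟨i, i', hc, ?_⟩
    simp only [hc, if_true] at hlt
    omega
  · exfalso
    simp only [hc, if_false] at hlt
    omega

end Crest.Agent.Helper31.S0066
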