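/-
S0066 (row 47) — package F4 (root step), shared definitions (helper31, with helper2).

Heavy lines at the root (blueprint F4).  `j : Fin h` is the index of the root level
(`j.val + 1 = h` is a hypothesis of the lemmas, not of the definitions).  A good column `q` in the
subtree of the child `s` of the root is HEAVY if at least `N / 4` of its cells against the
`kLo s`-cores of the root, or against the `kHi s`-cores of the root, are deleted; symmetric for
rows.  Only definitions here; no `sorry`.
-/
import Crest.Agent.Helper5.S0066.FarDefs

set_option autoImplicit false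

namespace Crest.Agent.Helper31.S0066

open Crest.Agent.Helper5.S0066 Line

variable {h : ℕ}

open Classical in
/-- The heavy rows at the root. -/
noncomputable def heavyRows (B : Line h → Line h → Bool) (i' : Fin (2 ^ h)) (j : Fin h) :
    Finset (Line h) :=
  Finset.univ.filter fun p => GoodRow B i' p ∧ ∃ s : Bool, InCls j.val s.toNat p ∧
    (2 ^ h ≤ 4 * (Finset.univ.filter fun y : Fin (2 ^ h) => B p (core j (kLo s) y) = false).card ∨
     2 ^ h ≤ 4 * (Finset.univ.filter fun y : Fin (2 ^ h) => B p (core j (kHi s) y) = false).card)

open Classical in
/-- The heavy columns at the root. -/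
noncomputable def heavyCols (B : Line h → Line h → Bool) (i : Fin (2 ^ h)) (j : Fin h) :
    Finset (Line h) :=
  Finset.univ.filter fun q => GoodCol B i q ∧ ∃ s : Bool, InCls j.val s.toNat q ∧
    (2 ^ h ≤ 4 * (Finset.univ.filter fun y : Fin (2 ^ h) => B (core j (kLo s) y) q = false).card ∨
     2 ^ h ≤ 4 * (Finset.univ.filter fun y : Fin (2 ^ h) => B (core j (kHi s) y) q = false).card)

end Crest.Agent.Helper31.S0066
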